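import Mathlib

/-!
# P184: idempotent sub-stochastic convolution matrices

Core combinatorial argument, for matrices of `ℝ≥0∞`-valued functions on a group.
-/

open scoped ENNReal

namespace Vale.Agent.Lib.P184

variable {G : Type*} [Group G] {q : ℕ}

/-- Convolution product of a matrix of `ℝ≥0∞`-valued functions with itself. -/
noncomputable def cv (p : Fin q → Fin q → G → ℝ≥0∞) (i j : Fin q) (g : G) : ℝ≥0∞ :=
  ∑' k, ∑' h, p i k h * p k j (h⁻¹ * g)

/-- Total mass of the `j`-th column. -/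
noncomputable def colSum (p : Fin q → Fin q → G → ℝ≥0∞) (j : Fin q) : ℝ≥0∞ :=
  ∑' i, ∑' g, p i j g

lemma tsum_shift (f : G → ℝ≥0∞) (h : G) : ∑' g, f (h⁻¹ * g) = ∑' g, f g :=
  (Equiv.mulLeft h⁻¹).tsum_eq f

lemma colSum_cv_le (p : Fin q → Fin q → G → ℝ≥0∞) (hp : ∀ j, colSum p j ≤ 1) (j : Fin q) :
    colSum (cv p) j ≤ colSum p j := by
  unfold colSum cv
  calc ∑' i, ∑' g, ∑' k, ∑' h, p i k h * p k j (h⁻¹ * g)
      = ∑' i, ∑' k, ∑' g, ∑' h, p i k h * p k j (h⁻¹ * g) := by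
        congr 1; ext i; exact ENNReal.tsum_comm
    _ = ∑' k, ∑' i, ∑' g, ∑' h, p i k h * p k j (h⁻¹ * g) := ENNReal.tsum_comm
    _ = ∑' k, ∑' i, ∑' h, ∑' g, p i k h * p k j (h⁻¹ * g) := by
        congr 1; ext k; congr 1; ext i; exact ENNReal.tsum_comm
    _ = ∑' k, ∑' i, ∑' h, p i k h * ∑' g, p k j g := by
        congr 1; ext k; congr 1; ext i; congr 1; ext h
        rw [ENNReal.tsum_mul_left, tsum_shift]
    _ = ∑' k, (∑' i, ∑' h, p i k h) * ∑' g, p k j g := by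
        congr 1; ext k
        rw [← ENNReal.tsum_mul_right]
        congr 1; ext i
        rw [ENNReal.tsum_mul_right]
    _ ≤ ∑' k, 1 * ∑' g, p k j g := by
        refine ENNReal.tsum_le_tsum fun k => ?_
        gcongr
        exact hp k
    _ = ∑' i, ∑' g, p i j g := by simp


lemma colSum_eq_tsum_prod (p : Fin q → Fin q → G → ℝ≥0∞) (j : Fin q) :
    colSum p j = ∑' x : Fin q × G, p x.1 j x.2 := by
  unfold colSum
  exact (ENNReal.tsum_prod (f := fun i g => p i j g)).symm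

lemma cv_eq_tsum_prod (p : Fin q → Fin q → G → ℝ≥0∞) (i j : Fin q) (g : G) :
    cv p i j g = ∑' x : Fin q × G, p i x.1 x.2 * p x.1 j (x.2⁻¹ * g) := by
  unfold cv
  exact (ENNReal.tsum_prod (f := fun k h => p i k h * p k j (h⁻¹ * g))).symm

/-- A sub-convolution-idempotent column-substochastic matrix is convolution idempotent. -/
lemma cv_eq_of_le (p : Fin q → Fin q → G → ℝ≥0∞) (hp : ∀ j, colSum p j ≤ 1)
    (hle : ∀ i j g, p i j g ≤ cv p i j g) (i j : Fin q) (g : G) : cv p i j g = p i j g := by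
  by_contra hne
  have hlt : p i j g < cv p i j g := lt_of_le_of_ne (hle i j g) (Ne.symm hne)
  have h1 : ∑' x : Fin q × G, p x.1 j x.2 < ∑' x : Fin q × G, cv p x.1 j x.2 := by
    refine ENNReal.tsum_lt_tsum (i := (i, g)) ?_ (fun x => hle x.1 j x.2) hlt
    rw [← colSum_eq_tsum_prod]
    exact ne_top_of_le_ne_top ENNReal.one_ne_top (hp j)
  rw [← colSum_eq_tsum_prod, ← colSum_eq_tsum_prod] at h1
  exact absurd (colSum_cv_le p hp j) (not_le.mpr h1)

lemma supp_mul (p : Fin q → Fin q → G → ℝ≥0∞) (hcv : ∀ i j g, cv p i j g = p i j g)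
    {i k j : Fin q} {a b : G} (ha : p i k a ≠ 0) (hb : p k j b ≠ 0) : p i j (a * b) ≠ 0 := by
  rw [← hcv, cv_eq_tsum_prod]
  intro h0
  rw [ENNReal.tsum_eq_zero] at h0
  have := h0 (k, a)
  simp only [inv_mul_cancel_left, mul_eq_zero] at this
  rcases this with h | h
  · exact ha h
  · exact hb h

lemma rowSum_ne_top (p : Fin q → Fin q → G → ℝ≥0∞) (hp : ∀ j, colSum p j ≤ 1) (i : Fin q) :
    ∑' x : Fin q × G, p i x.1 x.2 ≠ ∞ := by
  have h1 : ∑' x : Fin q × G, p i x.1 x.2 = ∑' k, ∑' g, p i k g :=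
    ENNReal.tsum_prod (f := fun k g => p i k g)
  have h2 : ∀ k, ∑' g, p i k g ≤ 1 := fun k =>
    le_trans (ENNReal.le_tsum (f := fun i => ∑' g, p i k g) i) (hp k)
  rw [h1, tsum_fintype]
  refine ne_top_of_le_ne_top ?_ (Finset.sum_le_sum fun k _ => h2 k)
  simp

/-- Existence of a maximiser of the `i`-th row, when the row is not zero. -/
lemma exists_row_max (p : Fin q → Fin q → G → ℝ≥0∞) (hp : ∀ j, colSum p j ≤ 1) (i : Fin q)
    (x0 : Fin q × G) (hx0 : p i x0.1 x0.2 ≠ 0) :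
    ∃ x1 : Fin q × G, p i x1.1 x1.2 ≠ 0 ∧ ∀ x : Fin q × G, p i x.1 x.2 ≤ p i x1.1 x1.2 := by
  have hfin : {x : Fin q × G | p i x0.1 x0.2 ≤ p i x.1 x.2}.Finite :=
    ENNReal.finite_const_le_of_tsum_ne_top (rowSum_ne_top p hp i) hx0
  obtain ⟨x1, hx1, hmax⟩ := hfin.toFinset.exists_max_image (fun x => p i x.1 x.2)
    ⟨x0, by simp⟩
  simp only [Set.Finite.mem_toFinset, Set.mem_ofPred_eq] at hx1 hmax
  refine ⟨x1, fun h => hx0 (le_antisymm (h ▸ hx1) zero_le), fun x => ?_⟩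
  by_cases hx : p i x0.1 x0.2 ≤ p i x.1 x.2
  · exact hmax x hx
  · exact le_trans (le_of_lt (not_le.mp hx)) hx1


/-- Maximum principle: at a maximiser `(j, g)` of the `i`-th row, every point `(k, h)` of the
support of the `j`-th column satisfies `p i k (g * h⁻¹) = max`. -/
lemma max_principle (p : Fin q → Fin q → G → ℝ≥0∞) (hp : ∀ j, colSum p j ≤ 1)
    (hcv : ∀ i j g, cv p i j g = p i j g) (i : Fin q) (x1 : Fin q × G)
    (hmax : ∀ x : Fin q × G, p i x.1 x.2 ≤ p i x1.1 x1.2)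
    (y : Fin q × G) (hy : p y.1 x1.1 y.2 ≠ 0) :
    p i x1.1 x1.2 ≤ p i y.1 (x1.2 * y.2⁻¹) := by
  by_contra hlt
  rw [not_le] at hlt
  set M := p i x1.1 x1.2 with hM
  have hMtop : M ≠ ∞ := by
    refine ne_top_of_le_ne_top (rowSum_ne_top p hp i) ?_
    exact ENNReal.le_tsum (f := fun x : Fin q × G => p i x.1 x.2) x1
  have hytop : p y.1 x1.1 y.2 ≠ ∞ := by
    refine ne_top_of_le_ne_top (rowSum_ne_top p hp y.1) ?_
    exact ENNReal.le_tsum (f := fun x : Fin q × G => p y.1 x.1 x.2) (x1.1, y.2)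
  have h1 : ∑' x : Fin q × G, p i x.1 x.2 * p x.1 x1.1 (x.2⁻¹ * x1.2)
      < ∑' x : Fin q × G, M * p x.1 x1.1 (x.2⁻¹ * x1.2) := by
    refine ENNReal.tsum_lt_tsum (i := (y.1, x1.2 * y.2⁻¹)) ?_ (fun x => ?_) ?_
    · change (∑' x : Fin q × G, p i x.1 x.2 * p x.1 x1.1 (x.2⁻¹ * x1.2)) ≠ ∞
      rw [← cv_eq_tsum_prod, hcv]
      exact hMtop
    · gcongr
      exact hmax x
    · have : (x1.2 * y.2⁻¹)⁻¹ * x1.2 = y.2 := by group
      simp only [this]
      exact (ENNReal.mul_lt_mul_iff_left hy hytop).mpr hlt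
  rw [← cv_eq_tsum_prod, hcv, ENNReal.tsum_mul_left] at h1
  have h2 : ∑' x : Fin q × G, p x.1 x1.1 (x.2⁻¹ * x1.2) ≤ 1 := by
    have e1 : ∑' x : Fin q × G, p x.1 x1.1 (x.2⁻¹ * x1.2)
        = ∑' k, ∑' h, p k x1.1 (h⁻¹ * x1.2) :=
      ENNReal.tsum_prod (f := fun k h => p k x1.1 (h⁻¹ * x1.2))
    have e2 : ∀ k, ∑' h, p k x1.1 (h⁻¹ * x1.2) = ∑' h, p k x1.1 h := fun k =>
      ((Equiv.inv G).trans (Equiv.mulRight x1.2)).tsum_eq (fun h => p k x1.1 h)
    rw [e1]
    simp only [e2]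
    exact hp x1.1
  have h3 : M * ∑' x : Fin q × G, p x.1 x1.1 (x.2⁻¹ * x1.2) ≤ M * 1 := by gcongr
  rw [mul_one] at h3
  exact absurd h3 (not_le.mpr h1)

/-- The column through a row maximiser has finite support. -/
lemma col_finite (p : Fin q → Fin q → G → ℝ≥0∞) (hp : ∀ j, colSum p j ≤ 1)
    (hcv : ∀ i j g, cv p i j g = p i j g) (i : Fin q) (x1 : Fin q × G)
    (hne : p i x1.1 x1.2 ≠ 0)
    (hmax : ∀ x : Fin q × G, p i x.1 x.2 ≤ p i x1.1 x1.2) :
    {y : Fin q × G | p y.1 x1.1 y.2 ≠ 0}.Finite := by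
  have hfin : {x : Fin q × G | p i x1.1 x1.2 ≤ p i x.1 x.2}.Finite :=
    ENNReal.finite_const_le_of_tsum_ne_top (rowSum_ne_top p hp i) hne
  let φ : Fin q × G → Fin q × G := fun y => (y.1, x1.2 * y.2⁻¹)
  have hφ : Function.Injective φ := by
    intro a b hab
    simp only [φ, Prod.mk.injEq, mul_right_inj, inv_inj] at hab
    exact Prod.ext hab.1 hab.2
  refine (hfin.preimage (f := φ) hφ.injOn).subset ?_
  intro y hy
  exact max_principle p hp hcv i x1 hmax y hy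

/-- The diagonal entries have finite support. -/
lemma diag_finite (p : Fin q → Fin q → G → ℝ≥0∞) (hp : ∀ j, colSum p j ≤ 1)
    (hcv : ∀ i j g, cv p i j g = p i j g) (i : Fin q) :
    {a : G | p i i a ≠ 0}.Finite := by
  by_cases hemp : ∃ a, p i i a ≠ 0
  · obtain ⟨a0, ha0⟩ := hemp
    obtain ⟨x1, hne, hmax⟩ := exists_row_max p hp i (i, a0) ha0
    have hcol := col_finite p hp hcv i x1 hne hmax
    let ψ : G → Fin q × G := fun a => (i, a * x1.2)
    have hψ : Function.Injective ψ := by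
      intro a b hab
      simpa [ψ] using hab
    refine (hcol.preimage (f := ψ) hψ.injOn).subset ?_
    intro a ha
    exact supp_mul p hcv ha hne
  · have hemp' : ∀ a, p i i a = 0 := fun a => by_contra fun h => hemp ⟨a, h⟩
    have : {a : G | p i i a ≠ 0} = ∅ := by
      ext a; simp [hemp' a]
    rw [this]; exact Set.finite_empty

/-- The support of a diagonal entry consists of elements of finite order. -/
lemma diag_finOrder (p : Fin q → Fin q → G → ℝ≥0∞) (hp : ∀ j, colSum p j ≤ 1)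
    (hcv : ∀ i j g, cv p i j g = p i j g) (i : Fin q) (a : G) (ha : p i i a ≠ 0) :
    IsOfFinOrder a := by
  have hpow : ∀ n : ℕ, p i i (a ^ (n + 1)) ≠ 0 := by
    intro n
    induction n with
    | zero => simpa using ha
    | succ n ih => rw [pow_succ]; exact supp_mul p hcv ih ha
  obtain ⟨m, n, hmn, heq⟩ := (diag_finite p hp hcv i).exists_lt_map_eq_of_forall_mem
    (f := fun n : ℕ => a ^ (n + 1)) hpow
  rw [isOfFinOrder_iff_pow_eq_one]
  refine ⟨n - m, Nat.sub_pos_of_lt hmn, ?_⟩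
  have h1 : a ^ (n + 1) = a ^ (n - m) * a ^ (m + 1) := by
    rw [← pow_add]; congr 1; omega
  have h2 : a ^ (m + 1) = a ^ (n - m) * a ^ (m + 1) := by
    simpa [h1] using heq
  exact (mul_eq_right.mp h2.symm)

end Vale.Agent.Lib.P184
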