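import Mathlib

/-!
# P184: definitions for the l1-Bass conjecture
-/

namespace Vale.Agent.Lib.P184

variable {G : Type*} [Group G] {q : ℕ}

/-- The `ℓ¹`-norm `∑_g |a(g)|` of a function `a : G → ℂ` (meaningful when `a ∈ ℓ¹(G)`). -/
noncomputable def l1norm (a : G → ℂ) : ℝ := ∑' g, ‖a g‖

/-- Convolution `(a * b)(g) = ∑_h a(h) b(h⁻¹ g)`. -/
noncomputable def conv (a b : G → ℂ) (g : G) : ℂ := ∑' h, a h * b (h⁻¹ * g)

/-- `e` is an idempotent `q × q` matrix over the Banach algebra `ℓ¹(G)`:
all entries are absolutely summable and `e * e = e` for the convolution matrix product. -/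
structure IsL1Idempotent (e : Fin q → Fin q → G → ℂ) : Prop where
  mem : ∀ i j, Summable fun g => ‖e i j g‖
  idem : ∀ i j g, ∑ k, conv (e i k) (e k j) g = e i j g

/-- The Hattori-Stallings coefficient `τ_C(e) = ∑_{g ∈ C} ∑_i e_ii(g)`. -/
noncomputable def hsCoeff (e : Fin q → Fin q → G → ℂ) (C : ConjClasses G) : ℂ :=
  ∑' g : {g : G // ConjClasses.mk g = C}, ∑ i, e i i g.1

/-- The conclusion of the `ℓ¹`-Bass conjecture for `e`: there is a finite set `F` of conjugacy
classes, each consisting of elements of finite order, with `τ_C(e) = 0` for all `C ∉ F`. -/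
def BassConclusion (e : Fin q → Fin q → G → ℂ) : Prop :=
  ∃ F : Finset (ConjClasses G),
    (∀ C ∈ F, ∀ g : G, ConjClasses.mk g = C → IsOfFinOrder g) ∧ ∀ C, C ∉ F → hsCoeff e C = 0

end Vale.Agent.Lib.P184
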