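import Vale.Agent.Lib.P184.Core
import Vale.Agent.Lib.P184.Defs

open scoped ENNReal

namespace Vale.Agent.Lib.P184

variable {G : Type*} [Group G] {q : ℕ}

/-- If all diagonal entries have finite support consisting of finite-order elements then the
Bass conclusion holds. -/
lemma bass_of_diag (e : Fin q → Fin q → G → ℂ)
    (hfin : ∀ i, {a : G | e i i a ≠ 0}.Finite)
    (hord : ∀ i a, e i i a ≠ 0 → IsOfFinOrder a) : BassConclusion e := by
  classical
  have hU : (⋃ i, {a : G | e i i a ≠ 0}).Finite := Set.finite_iUnion hfin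
  refine ⟨hU.toFinset.image ConjClasses.mk, ?_, ?_⟩
  · intro C hC g hg
    simp only [Finset.mem_image, Set.Finite.mem_toFinset, Set.mem_iUnion] at hC
    obtain ⟨a, ⟨i, hia⟩, haC⟩ := hC
    have hconj : IsConj a g := by
      rw [← ConjClasses.mk_eq_mk_iff_isConj, haC, hg]
    obtain ⟨c, hc⟩ := isConj_iff.mp hconj
    have ha := hord i a hia
    rw [← hc]
    have := (MulAut.conj c).toMonoidHom.isOfFinOrder ha
    simpa [MulAut.conj_apply] using this
  · intro C hC
    unfold hsCoeff
    have : ∀ g : {g : G // ConjClasses.mk g = C}, ∑ i, e i i g.1 = 0 := by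
      intro g
      refine Finset.sum_eq_zero fun i _ => ?_
      by_contra hne
      apply hC
      simp only [Finset.mem_image, Set.Finite.mem_toFinset, Set.mem_iUnion]
      exact ⟨g.1, ⟨i, hne⟩, g.2⟩
    simp [this]

/-- The modulus matrix. -/
noncomputable def md (e : Fin q → Fin q → G → ℂ) : Fin q → Fin q → G → ℝ≥0∞ :=
  fun i j g => ‖e i j g‖ₑ

lemma md_le_cv (e : Fin q → Fin q → G → ℂ) (he : IsL1Idempotent e) (i j : Fin q) (g : G) :
    md e i j g ≤ cv (md e) i j g := by
  unfold md cv
  rw [← he.idem i j g, tsum_fintype]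
  refine le_trans (enorm_sum_le _ _) (Finset.sum_le_sum fun k _ => ?_)
  unfold conv
  refine le_trans enorm_tsum_le_tsum_enorm ?_
  simp [enorm_mul]

lemma colSum_md (e : Fin q → Fin q → G → ℂ) (he : IsL1Idempotent e) (j : Fin q) :
    colSum (md e) j = ENNReal.ofReal (∑ i, l1norm (e i j)) := by
  unfold colSum md l1norm
  rw [tsum_fintype, ENNReal.ofReal_sum_of_nonneg (fun i _ => tsum_nonneg fun g => norm_nonneg _)]
  refine Finset.sum_congr rfl fun i _ => ?_
  rw [ENNReal.ofReal_tsum_of_nonneg (fun g => norm_nonneg _) (he.mem i j)]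
  simp

theorem diag_of_col (e : Fin q → Fin q → G → ℂ) (he : IsL1Idempotent e)
    (hc : ∀ j, ∑ i, l1norm (e i j) ≤ 1) :
    (∀ i, {a : G | e i i a ≠ 0}.Finite) ∧ (∀ i a, e i i a ≠ 0 → IsOfFinOrder a) := by
  have hp : ∀ j, colSum (md e) j ≤ 1 := by
    intro j
    rw [colSum_md e he]
    exact ENNReal.ofReal_le_one.mpr (hc j)
  have hcv := cv_eq_of_le (md e) hp (md_le_cv e he)
  have key : ∀ i a, e i i a ≠ 0 ↔ md e i i a ≠ 0 := by
    intro i a; simp [md]
  constructor
  · intro i
    have := diag_finite (md e) hp hcv i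
    simpa [key] using this
  · intro i a ha
    exact diag_finOrder (md e) hp hcv i a ((key i a).mp ha)


/-- The transposed and inverted matrix `e'_ij(g) = e_ji(g⁻¹)`. -/
def flipInv (e : Fin q → Fin q → G → ℂ) : Fin q → Fin q → G → ℂ := fun i j g => e j i g⁻¹

lemma flipInv_idem (e : Fin q → Fin q → G → ℂ) (he : IsL1Idempotent e) :
    IsL1Idempotent (flipInv e) := by
  constructor
  · intro i j
    exact (Equiv.inv G).summable_iff.mpr (he.mem j i)
  · intro i j g
    have h := he.idem j i g⁻¹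
    unfold flipInv
    rw [← h]
    refine Finset.sum_congr rfl fun k _ => ?_
    unfold conv
    rw [← (Equiv.mulLeft g⁻¹).tsum_eq (fun u => e j k u * e k i (u⁻¹ * g⁻¹))]
    refine tsum_congr fun h => ?_
    simp [mul_comm, mul_assoc]

lemma l1norm_flipInv (e : Fin q → Fin q → G → ℂ) (i j : Fin q) :
    l1norm (flipInv e i j) = l1norm (e j i) := by
  unfold l1norm flipInv
  exact (Equiv.inv G).tsum_eq (fun g => ‖e j i g‖)

theorem diag_of_row (e : Fin q → Fin q → G → ℂ) (he : IsL1Idempotent e)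
    (hr : ∀ i, ∑ j, l1norm (e i j) ≤ 1) :
    (∀ i, {a : G | e i i a ≠ 0}.Finite) ∧ (∀ i a, e i i a ≠ 0 → IsOfFinOrder a) := by
  obtain ⟨h1, h2⟩ := diag_of_col (flipInv e) (flipInv_idem e he)
    (fun j => by simpa [l1norm_flipInv] using hr j)
  constructor
  · intro i
    refine ((h1 i).preimage (f := fun a : G => a⁻¹) inv_injective.injOn).subset ?_
    intro a ha
    simpa [flipInv] using ha
  · intro i a ha
    have := h2 i a⁻¹ (by simpa [flipInv] using ha)
    exact isOfFinOrder_inv_iff.mp this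

end Vale.Agent.Lib.P184
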